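import Vale.Agent.Lib.P331.Opt

/-! # P331: weight of a maximal independent subset of the elements above a threshold -/

namespace Vale.Agent.Lib.P331

open MeasureTheory
open scoped NNReal ENNReal

variable {E : Type} [Fintype E] [DecidableEq E]

theorem opt_wv_le (M : Matroid E) {A : Finset E} {τ : ℝ≥0} {v : E → ℝ≥0}
    (hA : M.Indep (A : Set E)) (hAU : ∀ e ∈ A, τ < v e)
    (hmax : ∀ e, τ < v e → e ∉ A → ¬ M.Indep ((insert e A : Finset E) : Set E)) :
    opt M (wv τ v) ≤ ∑ e ∈ A, v e := by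
  refine opt_le M _ _ (fun I hI => ?_)
  have h1 : ∑ e ∈ I, wv τ v e = (I.filter (fun e => τ < v e)).card * τ := by
    unfold wv
    rw [← Finset.sum_filter, Finset.sum_const, nsmul_eq_mul]
  have hF : M.Indep ((I.filter (fun e => τ < v e) : Finset E) : Set E) :=
    hI.subset (by exact_mod_cast Finset.filter_subset _ I)
  have hcard : (I.filter (fun e => τ < v e)).card ≤ A.card := by
    by_contra hlt
    push Not at hlt
    obtain ⟨e, heF, heA, hins⟩ := hA.augment_finset hF hlt
    have hev : τ < v e := (Finset.mem_filter.mp heF).2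
    apply hmax e hev heA
    simpa using hins
  have h2 : (A.card : ℝ≥0) * τ ≤ ∑ e ∈ A, v e := by
    rw [← nsmul_eq_mul, ← Finset.sum_const]
    exact Finset.sum_le_sum (fun e he => (hAU e he).le)
  rw [h1]
  refine le_trans ?_ h2
  gcongr

theorem LB0_le (M : Matroid E) {A : Finset E} {τ : ℝ≥0} {v : E → ℝ≥0}
    (hzl : ∀ e, ¬ M.Indep {e} → v e = 0) (hAU : ∀ e ∈ A, τ < v e)
    (hmax : ∀ e, τ < v e → e ∉ A → ¬ M.Indep ((insert e A : Finset E) : Set E)) :
    LB0 τ v ≤ ∑ e ∈ A, v e := by
  unfold LB0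
  rw [← Finset.sum_filter]
  apply Finset.sum_le_sum_of_subset
  intro e he
  obtain ⟨h1, h2⟩ := (Finset.mem_filter.mp he).2
  by_contra heA
  have hAe : A = ∅ := by
    rw [Finset.eq_empty_iff_forall_notMem]
    intro f hf
    have hfe : f ≠ e := fun h => heA (h ▸ hf)
    exact absurd (hAU f hf) (not_lt.mpr (h2 f hfe))
  have h3 := hmax e h1 heA
  rw [hAe] at h3
  have h4 : M.Indep {e} := by
    by_contra h5
    have := hzl e h5
    rw [this] at h1
    exact absurd h1 (not_lt.mpr zero_le)
  apply h3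
  simpa using h4

end Vale.Agent.Lib.P331
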