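import Vale.Agent.Lib.P331.Greedy
import Vale.Agent.Lib.P331.Greedy2

/-! # P331: pointwise lower bound for the gain of the rule -/

namespace Vale.Agent.Lib.P331

open MeasureTheory
open scoped NNReal ENNReal

variable {E : Type} [Fintype E] [DecidableEq E]

theorem LB_le_alg (M : Matroid E) (L : ℕ) (i : Fin (L + 1)) (s v : E → ℝ≥0) (order : List E)
    (hc : ∀ e, e ∈ order) :
    LB M i (eff M s) (eff M v) ≤ ∑ e ∈ run M (thrRule M L) i s v order, v e := by
  obtain ⟨hA, hAU, hmax⟩ := run_spec M L i s v order hc
  have hsum : ∑ e ∈ run M (thrRule M L) i s v order, v e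
      = ∑ e ∈ run M (thrRule M L) i s v order, eff M v e := by
    apply Finset.sum_congr rfl
    intro e he
    have h1 : M.Indep {e} := hA.subset (by simpa using he)
    unfold eff
    rw [if_pos h1]
  rw [hsum]
  unfold LB
  split_ifs with h0
  · have h1 : thr (i : ℕ) (eff M s) = mx (eff M s) := by
      rw [h0]
      simp [thr]
    rw [h1] at hAU hmax
    refine LB0_le M (fun e he => ?_) hAU hmax
    unfold eff
    rw [if_neg he]
  · exact opt_wv_le M hA hAU hmax

end Vale.Agent.Lib.P331
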