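import Vale.Agent.Lib.P331.Defs2

/-! # P331: the exchange maps -/

namespace Vale.Agent.Lib.P331

open MeasureTheory
open scoped NNReal ENNReal

variable {E : Type} [Fintype E] [DecidableEq E]

omit [Fintype E] [DecidableEq E] in
theorem Top.sw {p : (E → ℝ≥0) × (E → ℝ≥0)} {e : E} {Y : ℝ≥0} (h : Top p e Y) (T : E → Bool) :
    Top (sw T p) e Y := by
  obtain ⟨h1, h2⟩ := h
  refine ⟨?_, fun f => ?_⟩
  · unfold Vale.Agent.Lib.P331.sw
    by_cases hT : T e = true
    · simp only [hT, if_true]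
      rw [max_comm]; exact h1
    · simp only [hT]
      exact h1
  · unfold Vale.Agent.Lib.P331.sw
    by_cases hT : T f = true
    · simp only [hT, if_true]
      exact ⟨(h2 f).2, (h2 f).1⟩
    · simp only [hT]
      exact h2 f

omit [Fintype E] [DecidableEq E] in
theorem ZL.sw {M : Matroid E} {p : (E → ℝ≥0) × (E → ℝ≥0)} (h : ZL M p) (T : E → Bool) :
    ZL M (sw T p) := by
  intro e he
  obtain ⟨h1, h2⟩ := h e he
  unfold Vale.Agent.Lib.P331.sw
  by_cases hT : T e = true
  · simp only [hT, if_true]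
    exact ⟨h2, h1⟩
  · simp only [hT]
    exact ⟨h1, h2⟩

omit [DecidableEq E] in
theorem exists_top [Nonempty E] (p : (E → ℝ≥0) × (E → ℝ≥0)) : ∃ e Y, Top p e Y := by
  obtain ⟨e, -, he⟩ := Finset.exists_max_image (Finset.univ : Finset E)
    (fun e => max (p.1 e) (p.2 e)) Finset.univ_nonempty
  refine ⟨e, max (p.1 e) (p.2 e), rfl, fun f => ?_⟩
  have := he f (Finset.mem_univ f)
  exact ⟨le_trans (le_max_left _ _) this, le_trans (le_max_right _ _) this⟩

omit [Fintype E] [DecidableEq E] in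
private theorem sw_sw (T0 T : E → Bool) (p : (E → ℝ≥0) × (E → ℝ≥0)) :
    sw T0 (sw T p) = sw (fun e => xor (T e) (T0 e)) p := by
  unfold sw
  refine Prod.ext ?_ ?_
  · funext e
    cases hT : T e <;> cases hT0 : T0 e <;> simp [hT, hT0]
  · funext e
    cases hT : T e <;> cases hT0 : T0 e <;> simp [hT, hT0]

theorem sum_sw_comp (F : (E → ℝ≥0) × (E → ℝ≥0) → ℝ≥0) (T0 : E → Bool)
    (p : (E → ℝ≥0) × (E → ℝ≥0)) :
    ∑ T : E → Bool, F (sw T0 (sw T p)) = ∑ T : E → Bool, F (sw T p) := by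
  have hinv : Function.Involutive (fun (T : E → Bool) => fun e => xor (T e) (T0 e)) := by
    intro T
    funext e
    show xor (xor (T e) (T0 e)) (T0 e) = T e
    cases T e <;> cases T0 e <;> rfl
  refine Fintype.sum_equiv hinv.toPerm _ _ (fun T => ?_)
  rw [sw_sw]
  rfl

omit [Fintype E] [DecidableEq E] in
theorem sw_eff (M : Matroid E) (T : E → Bool) (p : (E → ℝ≥0) × (E → ℝ≥0)) :
    sw T (eff M p.1, eff M p.2) = (eff M (sw T p).1, eff M (sw T p).2) := by
  unfold sw eff
  refine Prod.ext ?_ ?_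
  · funext e
    by_cases hT : T e = true <;> simp [hT]
  · funext e
    by_cases hT : T e = true <;> simp [hT]

omit [Fintype E] [DecidableEq E] in
theorem zl_eff (M : Matroid E) (p : (E → ℝ≥0) × (E → ℝ≥0)) : ZL M (eff M p.1, eff M p.2) := by
  intro e he
  unfold eff
  simp [he]

end Vale.Agent.Lib.P331
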