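import Vale.Agent.Lib.P331.Dyadic
import Vale.Agent.Lib.P331.Swap

/-! # P331: the optimum against the largest number and the lower bounds -/

namespace Vale.Agent.Lib.P331

open MeasureTheory
open scoped NNReal ENNReal

variable {E : Type} [Fintype E] [DecidableEq E]

theorem opt_le_top_aux (M : Matroid E) (L : ℕ) (hL : M.eRank.toNat ≤ 2 ^ L)
    (q : (E → ℝ≥0) × (E → ℝ≥0)) (e : E) (Y : ℝ≥0) (ht : Top q e Y) (h1 : q.1 e = Y) :
    opt M q.2 ≤ Y + Phi M L q := by
  have hmx : mx q.1 = Y := by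
    apply le_antisymm
    · exact Finset.sup_le fun f _ => (ht.2 f).1
    · rw [← h1]
      exact Finset.le_sup (f := q.1) (Finset.mem_univ e)
  have h := opt_le_of_top_sample M L hL q (fun f => (ht.2 f).2.trans_eq hmx.symm)
  rwa [hmx] at h

theorem opt_le_two_top (M : Matroid E) (L : ℕ) (hL : M.eRank.toNat ≤ 2 ^ L)
    (q : (E → ℝ≥0) × (E → ℝ≥0)) (e : E) (Y : ℝ≥0) (ht : Top q e Y) :
    opt M q.2 ≤ 2 * Y + Phi M L q + Phi M L (sw (fun f => decide (f = e)) q) := by
  have hcase : q.1 e = Y ∨ q.2 e = Y := by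
    rcases le_total (q.1 e) (q.2 e) with h | h
    · right
      rw [← ht.1, max_eq_right h]
    · left
      rw [← ht.1, max_eq_left h]
  rcases hcase with h1 | h2
  · have h := opt_le_top_aux M L hL q e Y ht h1
    calc opt M q.2 ≤ Y + Phi M L q := h
      _ ≤ Y + Phi M L q + (Y + Phi M L (sw (fun f => decide (f = e)) q)) := le_self_add
      _ = 2 * Y + Phi M L q + Phi M L (sw (fun f => decide (f = e)) q) := by ring
  · set q' := sw (fun f => decide (f = e)) q with hq'
    have ht' : Top q' e Y := ht.sw _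
    have h1' : q'.1 e = Y := by
      rw [hq']
      simp [sw, h2]
    have h := opt_le_top_aux M L hL q' e Y ht' h1'
    have hoff : ∀ f, f ≠ e → q.2 f ≤ q'.2 f := by
      intro f hf
      rw [hq']
      simp [sw, hf]
    have h3 := opt_le_add_of_le_off M e q.2 q'.2 hoff
    rw [h2] at h3
    calc opt M q.2 ≤ Y + opt M q'.2 := h3
      _ ≤ Y + (Y + Phi M L q') := by gcongr
      _ ≤ Y + (Y + Phi M L q') + Phi M L q := le_self_add
      _ = 2 * Y + Phi M L q + Phi M L q' := by ring

end Vale.Agent.Lib.P331
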