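import Vale.Agent.Lib.P331.Four
import Vale.Agent.Lib.P331.OptTop

/-! # P331: the deterministic core inequality -/

namespace Vale.Agent.Lib.P331

open MeasureTheory
open scoped NNReal ENNReal

variable {E : Type} [Fintype E] [DecidableEq E]

theorem core (M : Matroid E) (L : ℕ) (hL1 : 1 ≤ L) (hL : M.eRank.toNat ≤ 2 ^ L)
    (p : (E → ℝ≥0) × (E → ℝ≥0)) (hz : ZL M p) :
    ∑ T : E → Bool, opt M (sw T p).2 ≤ 18 * ∑ T : E → Bool, Phi M L (sw T p) := by
  classical
  rcases isEmpty_or_nonempty E with hE | hE
  · have h0 : ∀ T : E → Bool, opt M (sw T p).2 = 0 := by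
      intro T
      have : opt M (sw T p).2 ≤ 0 := by
        apply opt_le
        intro I _
        have : I = ∅ := Finset.eq_empty_of_isEmpty I
        simp [this]
      exact le_antisymm this zero_le
    simp [h0]
  · obtain ⟨e, Y, ht⟩ := exists_top p
    set a : E → Bool := fun f => decide (f = e) with ha
    set b : E → Bool := fun f => decide (f ≠ e) with hb
    set S : ℝ≥0 := ∑ T : E → Bool, Phi M L (sw T p) with hS
    have key : ∀ T : E → Bool, opt M (sw T p).2 ≤
        5 * Phi M L (sw T p) + 4 * Phi M L (sw b (sw T p)) + 5 * Phi M L (sw a (sw T p))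
          + 4 * Phi M L (sw b (sw a (sw T p))) := by
      intro T
      have h1 := opt_le_two_top M L hL (sw T p) e Y (ht.sw T)
      have h2 := top_le_four M L hL1 (sw T p) (hz.sw T) e Y (ht.sw T)
      calc opt M (sw T p).2 ≤ 2 * Y + Phi M L (sw T p) + Phi M L (sw a (sw T p)) := h1
        _ ≤ 2 * (2 * (Phi M L (sw T p) + Phi M L (sw b (sw T p)) + Phi M L (sw a (sw T p))
              + Phi M L (sw b (sw a (sw T p))))) + Phi M L (sw T p)
              + Phi M L (sw a (sw T p)) := by gcongr
        _ = _ := by ring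
    have s1 : ∑ T : E → Bool, Phi M L (sw b (sw T p)) = S := sum_sw_comp (Phi M L) b p
    have s2 : ∑ T : E → Bool, Phi M L (sw a (sw T p)) = S := sum_sw_comp (Phi M L) a p
    have s3 : ∑ T : E → Bool, Phi M L (sw b (sw a (sw T p))) = S := by
      rw [sum_sw_comp (fun x => Phi M L (sw b x)) a p]
      exact s1
    calc ∑ T : E → Bool, opt M (sw T p).2
        ≤ ∑ T : E → Bool, (5 * Phi M L (sw T p) + 4 * Phi M L (sw b (sw T p))
          + 5 * Phi M L (sw a (sw T p)) + 4 * Phi M L (sw b (sw a (sw T p)))) :=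
          Finset.sum_le_sum (fun T _ => key T)
      _ = 5 * S + 4 * S + 5 * S + 4 * S := by
          rw [Finset.sum_add_distrib, Finset.sum_add_distrib, Finset.sum_add_distrib,
            ← Finset.mul_sum, ← Finset.mul_sum, ← Finset.mul_sum, ← Finset.mul_sum, s1, s2, s3]
      _ = 18 * S := by ring

end Vale.Agent.Lib.P331
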