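import Mathlib

/-!
# P331: the single-sample matroid prophet inequality, almighty adversary: the model

Values live in `ℝ≥0`, expectations are lower Lebesgue integrals with values in `ℝ≥0∞`.
-/

namespace Vale.Agent.Lib.P331

open MeasureTheory
open scoped NNReal ENNReal

variable {E : Type} [Fintype E] [DecidableEq E]

open scoped Classical in
/-- `OPT_M(v)`: the largest total value of an independent set. -/
noncomputable def opt (M : Matroid E) (v : E → ℝ≥0) : ℝ≥0 :=
  (Finset.univ.filter (fun I : Finset E => M.Indep (I : Set E))).sup (fun I => ∑ e ∈ I, v e)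

/-- The value vector with every entry outside the list `l` replaced by `0`:
what has been revealed once exactly the elements of `l` have arrived. -/
def mask (l : List E) (v : E → ℝ≥0) : E → ℝ≥0 := fun f => if f ∈ l then v f else 0

/-- An online rule using one sample per element.  `Seed`, `law`: the private randomness.
`dec r s past e x` is the wish of the rule (accept or not) for the arriving element `e` when
the seed is `r`, the sample vector is `s`, the elements of `past` arrived before
(latest first) and `x` is the vector of the values revealed so far (entries of elements that have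
not arrived yet are blanked to `0` by `run`). -/
structure Rule (E : Type) where
  Seed : Type
  mSeed : MeasurableSpace Seed
  law : Measure Seed
  prob : IsProbabilityMeasure law
  dec : Seed → (E → ℝ≥0) → List E → E → (E → ℝ≥0) → Bool
  meas : ∀ (past : List E) (e : E),
    Measurable (fun p : Seed × (E → ℝ≥0) × (E → ℝ≥0) => dec p.1 p.2.1 past e p.2.2)

attribute [instance] Rule.mSeed Rule.prob

open scoped Classical in
/-- One arrival: the state is (elements arrived so far, accepted set).  The element is accepted
iff the rule wishes so and the accepted set stays independent. -/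
noncomputable def step (M : Matroid E) (R : Rule E) (r : R.Seed) (s v : E → ℝ≥0)
    (st : List E × Finset E) (e : E) : List E × Finset E :=
  (e :: st.1,
    if R.dec r s st.1 e (mask (e :: st.1) v) = true ∧ M.Indep ((insert e st.2 : Finset E) : Set E)
    then insert e st.2 else st.2)

/-- The accepted set after the elements arrived in the order `order`. -/
noncomputable def run (M : Matroid E) (R : Rule E) (r : R.Seed) (s v : E → ℝ≥0)
    (order : List E) : Finset E :=
  (order.foldl (step M R r s v) ([], ∅)).2

/-- An almighty adversary against the rule `R`: an arrival order (a list without repetition that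
contains every element) chosen as a measurable function of seed, samples and values. -/
structure Adversary (R : Rule E) where
  order : R.Seed → (E → ℝ≥0) → (E → ℝ≥0) → List E
  nodup : ∀ r s v, (order r s v).Nodup
  complete : ∀ r s v e, e ∈ order r s v
  meas : ∀ l : List E,
    MeasurableSet {p : R.Seed × (E → ℝ≥0) × (E → ℝ≥0) | order p.1 p.2.1 p.2.2 = l}

/-- `R` is `c`-competitive on `M` against the almighty adversary: for all laws `D e` on `[0,∞)`
with finite expected optimum and all adversaries (which may depend on the laws),
`c * E[OPT_M(V)] ≤ E[∑_{e ∈ A} V_e]`, where seed, samples and values are independent,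
`S_e` and `V_e` have law `D e`. -/
def Competitive (M : Matroid E) (R : Rule E) (c : ℝ≥0∞) : Prop :=
  ∀ D : E → Measure ℝ≥0, (∀ e, IsProbabilityMeasure (D e)) →
    (∫⁻ v, (opt M v : ℝ≥0∞) ∂(Measure.pi D)) ≠ ⊤ →
    ∀ adv : Adversary R,
      c * ∫⁻ v, (opt M v : ℝ≥0∞) ∂(Measure.pi D) ≤
        ∫⁻ p, ((∑ e ∈ run M R p.1 p.2.1 p.2.2 (adv.order p.1 p.2.1 p.2.2), p.2.2 e : ℝ≥0) : ℝ≥0∞)
          ∂(R.law.prod ((Measure.pi D).prod (Measure.pi D)))

/-! ### The threshold rule -/

open scoped Classical in
/-- Values of loops are replaced by `0`. -/
noncomputable def eff (M : Matroid E) (x : E → ℝ≥0) : E → ℝ≥0 :=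
  fun e => if M.Indep {e} then x e else 0

/-- largest entry -/
def mx (s : E → ℝ≥0) : ℝ≥0 := Finset.univ.sup s

/-- the `i`-th threshold -/
noncomputable def thr (i : ℕ) (s : E → ℝ≥0) : ℝ≥0 := mx s / 2 ^ i

theorem measurable_finset_sup {ι δ : Type} [MeasurableSpace δ] (t : Finset ι) (f : ι → δ → ℝ≥0)
    (hf : ∀ i ∈ t, Measurable (f i)) : Measurable (fun x => t.sup (fun i => f i x)) := by
  classical
  induction t using Finset.induction_on with
  | empty => simp
  | insert a t ha ih =>
    simp only [Finset.sup_insert]
    exact (hf a (Finset.mem_insert_self a t)).sup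
      (ih (fun i hi => hf i (Finset.mem_insert_of_mem hi)))

omit [Fintype E] [DecidableEq E] in
theorem measurable_eff (M : Matroid E) : Measurable (eff M) := by
  classical
  refine measurable_pi_iff.mpr (fun e => ?_)
  unfold eff
  by_cases h : M.Indep {e}
  · simp only [h, if_true]; exact measurable_pi_apply e
  · simp only [h, if_false]; exact measurable_const

omit [DecidableEq E] in
theorem measurable_mx : Measurable (mx : (E → ℝ≥0) → ℝ≥0) := by
  unfold mx
  exact measurable_finset_sup Finset.univ (fun e (s : E → ℝ≥0) => s e)
    (fun e _ => measurable_pi_apply e)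

omit [DecidableEq E] in
theorem measurable_thr (i : ℕ) : Measurable (thr i : (E → ℝ≥0) → ℝ≥0) := by
  unfold thr
  exact measurable_mx.div_const _

/-- The rule: draw `i` uniformly in `{0,…,L}`, wish every element that is not a loop and whose value
exceeds (largest sample of a non-loop) `/ 2 ^ i`. -/
noncomputable def thrRule (M : Matroid E) (L : ℕ) : Rule E where
  Seed := Fin (L + 1)
  mSeed := ⊤
  law := ((L : ℝ≥0∞) + 1)⁻¹ • Measure.count
  prob := by
    let _ : MeasurableSpace (Fin (L + 1)) := ⊤
    constructor
    rw [Measure.smul_apply, Measure.count_univ]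
    simp only [ENat.card_eq_coe_fintype_card, Fintype.card_fin, smul_eq_mul]
    have h1 : ((L : ℝ≥0∞) + 1) ≠ 0 := by positivity
    have h2 : ((L : ℝ≥0∞) + 1) ≠ ⊤ := by finiteness
    push_cast
    exact ENNReal.inv_mul_cancel h1 h2
  dec := fun i s _ e x => decide (thr i (eff M s) < eff M x e)
  meas := by
    intro _ e
    let _ : MeasurableSpace (Fin (L + 1)) := ⊤
    apply measurable_from_prod_countable_right
    intro i
    apply measurable_to_bool
    have : (fun p : (E → ℝ≥0) × (E → ℝ≥0) => decide (thr i (eff M p.1) < eff M p.2 e)) ⁻¹' {true}
        = {p | thr i (eff M p.1) < eff M p.2 e} := by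
      ext p; simp
    rw [this]
    exact measurableSet_lt ((measurable_thr i).comp ((measurable_eff M).comp measurable_fst))
      ((measurable_pi_apply e).comp ((measurable_eff M).comp measurable_snd))

end Vale.Agent.Lib.P331
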