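import Vale.Agent.Lib.P331.Defs

/-! # P331: auxiliary definitions for the analysis of the threshold rule -/

namespace Vale.Agent.Lib.P331

open MeasureTheory
open scoped NNReal ENNReal

variable {E : Type} [Fintype E] [DecidableEq E]

/-- the vector `τ · 1[v > τ]` -/
noncomputable def wv (τ : ℝ≥0) (v : E → ℝ≥0) : E → ℝ≥0 := fun e => if τ < v e then τ else 0

/-- value of the unique element above `τ` (if there is exactly one) -/
noncomputable def LB0 (τ : ℝ≥0) (v : E → ℝ≥0) : ℝ≥0 :=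
  ∑ e, if (τ < v e ∧ ∀ f, f ≠ e → v f ≤ τ) then v e else 0

/-- lower bound for the gain of the rule with seed `i` -/
noncomputable def LB (M : Matroid E) (i : ℕ) (s v : E → ℝ≥0) : ℝ≥0 :=
  if i = 0 then LB0 (mx s) v else opt M (wv (thr i s) v)

noncomputable def Phi (M : Matroid E) (L : ℕ) (p : (E → ℝ≥0) × (E → ℝ≥0)) : ℝ≥0 :=
  ∑ i ∈ Finset.range (L + 1), LB M i p.1 p.2

/-- exchange sample and value on the elements with `T e = true` -/
def sw (T : E → Bool) (p : (E → ℝ≥0) × (E → ℝ≥0)) : (E → ℝ≥0) × (E → ℝ≥0) :=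
  (fun e => if T e = true then p.2 e else p.1 e, fun e => if T e = true then p.1 e else p.2 e)

/-- `e` carries the largest of all `2n` numbers, which is `Y` -/
def Top (p : (E → ℝ≥0) × (E → ℝ≥0)) (e : E) (Y : ℝ≥0) : Prop :=
  max (p.1 e) (p.2 e) = Y ∧ ∀ f, p.1 f ≤ Y ∧ p.2 f ≤ Y

/-- zero on loops -/
def ZL (M : Matroid E) (p : (E → ℝ≥0) × (E → ℝ≥0)) : Prop :=
  ∀ e, ¬ M.Indep {e} → p.1 e = 0 ∧ p.2 e = 0

end Vale.Agent.Lib.P331
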