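import Vale.Agent.Lib.P331.Opt

/-! # P331: dyadic decomposition -/

namespace Vale.Agent.Lib.P331

open MeasureTheory
open scoped NNReal ENNReal

variable {E : Type} [Fintype E] [DecidableEq E]

theorem dyadic_half (m : ℝ≥0) (L : ℕ) : m / 2 ^ (L + 1) + m / 2 ^ (L + 1) = m / 2 ^ L := by
  rw [pow_succ, ← div_div, add_halves]

theorem dyadic (m x : ℝ≥0) (h : x ≤ m) (L : ℕ) :
    x ≤ m / 2 ^ L + ∑ i ∈ Finset.range L, (if m / 2 ^ (i + 1) < x then m / 2 ^ (i + 1) else 0) := by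
  induction L with
  | zero => simpa using h
  | succ L ih =>
    rw [Finset.sum_range_succ]
    by_cases hx : m / 2 ^ (L + 1) < x
    · rw [if_pos hx]
      calc x ≤ m / 2 ^ L + ∑ i ∈ Finset.range L,
              (if m / 2 ^ (i + 1) < x then m / 2 ^ (i + 1) else 0) := ih
        _ = m / 2 ^ (L + 1) + (∑ i ∈ Finset.range L,
              (if m / 2 ^ (i + 1) < x then m / 2 ^ (i + 1) else 0) + m / 2 ^ (L + 1)) := by
            rw [← dyadic_half m L]
            ring
    · exact (not_lt.1 hx).trans le_self_add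

/-- If the largest sample dominates all values, the optimum is at most that sample plus the lower
bounds. -/
theorem opt_le_of_top_sample (M : Matroid E) (L : ℕ) (hL : M.eRank.toNat ≤ 2 ^ L)
    (p : (E → ℝ≥0) × (E → ℝ≥0)) (h : ∀ e, p.2 e ≤ mx p.1) :
    opt M p.2 ≤ mx p.1 + Phi M L p := by
  have h1 : ∀ e, p.2 e ≤ mx p.1 / 2 ^ L +
      ∑ i ∈ Finset.range L, wv (thr (i + 1) p.1) p.2 e := by
    intro e
    exact dyadic (mx p.1) (p.2 e) (h e) L
  have h2 := opt_mono M h1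
  have h3 := opt_add_le M (fun _ => mx p.1 / 2 ^ L)
    (fun e => ∑ i ∈ Finset.range L, wv (thr (i + 1) p.1) p.2 e)
  have h4 := opt_sum_le M (Finset.range L) (fun i => wv (thr (i + 1) p.1) p.2)
  have h5 := opt_const_le M (mx p.1 / 2 ^ L)
  have h6 : mx p.1 / 2 ^ L * (M.eRank.toNat : ℝ≥0) ≤ mx p.1 := by
    have hc : (M.eRank.toNat : ℝ≥0) ≤ 2 ^ L := by exact_mod_cast hL
    calc mx p.1 / 2 ^ L * (M.eRank.toNat : ℝ≥0) ≤ mx p.1 / 2 ^ L * 2 ^ L :=
          mul_le_mul_of_nonneg_left hc zero_le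
      _ = mx p.1 := div_mul_cancel₀ _ (by positivity)
  have h7 : ∑ i ∈ Finset.range L, opt M (wv (thr (i + 1) p.1) p.2) ≤ Phi M L p := by
    unfold Phi
    rw [Finset.sum_range_succ']
    have : ∀ i ∈ Finset.range L, LB M (i + 1) p.1 p.2 = opt M (wv (thr (i + 1) p.1) p.2) := by
      intro i _
      simp [LB]
    rw [Finset.sum_congr rfl this]
    exact le_self_add
  calc opt M p.2 ≤ _ := h2
    _ ≤ _ := h3
    _ ≤ mx p.1 + Phi M L p := add_le_add (h5.trans h6) (h4.trans h7)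

end Vale.Agent.Lib.P331
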