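import Vale.Agent.Lib.P331.Good

/-! # P331: one of four exchanged configurations is good -/

namespace Vale.Agent.Lib.P331

open MeasureTheory
open scoped NNReal ENNReal

variable {E : Type} [Fintype E] [DecidableEq E]

theorem top_le_two (M : Matroid E) (L : ℕ) (hL1 : 1 ≤ L) (q : (E → ℝ≥0) × (E → ℝ≥0))
    (hz : ZL M q) (e : E) (Y : ℝ≥0) (ht : Top q e Y) (hv : q.2 e = Y) :
    Y ≤ 2 * (Phi M L q + Phi M L (sw (fun f => decide (f ≠ e)) q)) := by
  classical
  by_cases hA : (Finset.univ.erase e).sup q.2 ≤ (Finset.univ.erase e).sup q.1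
  · have h1 : Y ≤ 2 * Phi M L q := by
      refine le_Phi_of_good M L hL1 q hz e Y hv (fun f => (ht.2 f).1) ?_
      intro f hf
      have h2 : q.2 f ≤ (Finset.univ.erase e).sup q.2 :=
        Finset.le_sup (f := q.2) (Finset.mem_erase.mpr ⟨hf, Finset.mem_univ f⟩)
      have h3 : (Finset.univ.erase e).sup q.1 ≤ mx q.1 :=
        Finset.sup_mono (Finset.erase_subset _ _)
      exact h2.trans (hA.trans h3)
    refine h1.trans ?_
    rw [mul_add]
    exact le_self_add
  · have hA' : (Finset.univ.erase e).sup q.1 ≤ (Finset.univ.erase e).sup q.2 := le_of_not_ge hA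
    have htop := ht.sw (fun f => decide (f ≠ e))
    have h1 : Y ≤ 2 * Phi M L (sw (fun f => decide (f ≠ e)) q) := by
      refine le_Phi_of_good M L hL1 _ (hz.sw _) e Y ?_ (fun f => (htop.2 f).1) ?_
      · simp [sw, hv]
      · intro f hf
        have e2 : (sw (fun f => decide (f ≠ e)) q).2 f = q.1 f := by
          simp [sw, hf]
        rw [e2]
        have h2 : q.1 f ≤ (Finset.univ.erase e).sup q.1 :=
          Finset.le_sup (f := q.1) (Finset.mem_erase.mpr ⟨hf, Finset.mem_univ f⟩)
        have h3 : (Finset.univ.erase e).sup q.2 ≤ mx (sw (fun f => decide (f ≠ e)) q).1 := by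
          refine Finset.sup_le ?_
          intro g hg
          have hge : g ≠ e := (Finset.mem_erase.mp hg).1
          have e3 : (sw (fun f => decide (f ≠ e)) q).1 g = q.2 g := by
            simp [sw, hge]
          rw [← e3]
          exact Finset.le_sup (f := (sw (fun f => decide (f ≠ e)) q).1) (Finset.mem_univ g)
        exact h2.trans (hA'.trans h3)
    refine h1.trans ?_
    rw [mul_add]
    exact le_add_self

theorem top_le_four (M : Matroid E) (L : ℕ) (hL1 : 1 ≤ L) (q : (E → ℝ≥0) × (E → ℝ≥0))
    (hz : ZL M q) (e : E) (Y : ℝ≥0) (ht : Top q e Y) :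
    Y ≤ 2 * (Phi M L q + Phi M L (sw (fun f => decide (f ≠ e)) q)
      + Phi M L (sw (fun f => decide (f = e)) q)
      + Phi M L (sw (fun f => decide (f ≠ e)) (sw (fun f => decide (f = e)) q))) := by
  classical
  by_cases hv : q.2 e = Y
  · have h := top_le_two M L hL1 q hz e Y ht hv
    refine h.trans ?_
    refine mul_le_mul_right ?_ 2
    rw [add_assoc (Phi M L q + Phi M L (sw (fun f => decide (f ≠ e)) q))]
    exact le_self_add
  · have hv1 : q.1 e = Y := by
      have h1 := ht.1
      rcases le_total (q.1 e) (q.2 e) with h | h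
      · rw [max_eq_right h] at h1
        exact absurd h1 hv
      · rw [max_eq_left h] at h1
        exact h1
    have h := top_le_two M L hL1 (sw (fun f => decide (f = e)) q) (hz.sw _) e Y (ht.sw _)
      (by simp [sw, hv1])
    refine h.trans ?_
    refine mul_le_mul_right ?_ 2
    rw [add_assoc (Phi M L q + Phi M L (sw (fun f => decide (f ≠ e)) q))]
    exact le_add_self

end Vale.Agent.Lib.P331
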