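import Vale.Agent.Lib.P331.Opt
import Vale.Agent.Lib.P331.Swap

/-! # P331: the largest number is collected with constant probability -/

namespace Vale.Agent.Lib.P331

open MeasureTheory
open scoped NNReal ENNReal

variable {E : Type} [Fintype E] [DecidableEq E]

theorem le_Phi_of_good (M : Matroid E) (L : ℕ) (hL1 : 1 ≤ L) (p : (E → ℝ≥0) × (E → ℝ≥0))
    (hz : ZL M p) (e : E) (Y : ℝ≥0) (hv : p.2 e = Y) (hs : ∀ f, p.1 f ≤ Y)
    (ho : ∀ f, f ≠ e → p.2 f ≤ mx p.1) : Y ≤ 2 * Phi M L p := by
  have hmx : mx p.1 ≤ Y := Finset.sup_le (fun f _ => hs f)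
  have hPhi : ∀ i ∈ Finset.range (L + 1), LB M i p.1 p.2 ≤ Phi M L p := by
    intro i hi
    unfold Phi
    exact Finset.single_le_sum (f := fun i => LB M i p.1 p.2) (fun _ _ => zero_le) hi
  have h2 : Phi M L p ≤ 2 * Phi M L p := by
    rw [two_mul]
    exact le_add_of_nonneg_left zero_le
  rcases lt_or_ge (mx p.1) Y with hlt | hge
  · have h0 := hPhi 0 (Finset.mem_range.2 (Nat.succ_pos L))
    have h1 : Y ≤ LB M 0 p.1 p.2 := by
      unfold LB
      rw [if_pos rfl]
      unfold LB0
      have h3 := Finset.single_le_sum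
        (f := fun e => if (mx p.1 < p.2 e ∧ ∀ f, f ≠ e → p.2 f ≤ mx p.1) then p.2 e else 0)
        (fun _ _ => zero_le) (Finset.mem_univ e)
      have h4 : (if (mx p.1 < p.2 e ∧ ∀ f, f ≠ e → p.2 f ≤ mx p.1) then p.2 e else 0) = Y := by
        rw [if_pos ⟨by rw [hv]; exact hlt, ho⟩, hv]
      rw [h4] at h3
      exact h3
    exact (h1.trans h0).trans h2
  · have heq : mx p.1 = Y := le_antisymm hmx hge
    rcases eq_or_ne Y 0 with hY | hY
    · rw [hY]; exact zero_le
    · have hYpos : 0 < Y := pos_iff_ne_zero.2 hY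
      have h1 := hPhi 1 (Finset.mem_range.2 (by omega))
      have hthr : thr 1 p.1 = Y / 2 := by
        unfold thr
        rw [heq, pow_one]
      have hhalf : Y / 2 < Y := NNReal.half_lt_self hY
      have hind : M.Indep {e} := by
        by_contra hne
        have := (hz e hne).2
        rw [hv] at this
        exact hY this
      have h3 : Y / 2 ≤ LB M 1 p.1 p.2 := by
        unfold LB
        rw [if_neg one_ne_zero, hthr]
        have h4 := le_opt M (wv (Y / 2) p.2) hind
        have h5 : wv (Y / 2) p.2 e = Y / 2 := by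
          unfold wv
          rw [if_pos (by rw [hv]; exact hhalf)]
        rw [h5] at h4
        exact h4
      have h6 : Y / 2 ≤ Phi M L p := h3.trans h1
      calc Y = 2 * (Y / 2) := by
            rw [mul_div_assoc']
            exact (mul_div_cancel_left₀ Y two_ne_zero).symm
        _ ≤ 2 * Phi M L p := by gcongr

end Vale.Agent.Lib.P331
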