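import Vale.Agent.Lib.P331.Defs2

/-! # P331: elementary properties of `opt` -/

namespace Vale.Agent.Lib.P331

open MeasureTheory
open scoped NNReal ENNReal

variable {E : Type} [Fintype E] [DecidableEq E]

theorem sum_le_opt (M : Matroid E) (v : E → ℝ≥0) {I : Finset E} (hI : M.Indep (I : Set E)) :
    ∑ e ∈ I, v e ≤ opt M v := by
  classical
  unfold opt
  exact Finset.le_sup (f := fun I : Finset E => ∑ e ∈ I, v e)
    (Finset.mem_filter.mpr ⟨Finset.mem_univ I, hI⟩)

theorem opt_le (M : Matroid E) (v : E → ℝ≥0) (c : ℝ≥0)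
    (h : ∀ I : Finset E, M.Indep (I : Set E) → ∑ e ∈ I, v e ≤ c) : opt M v ≤ c := by
  classical
  unfold opt
  exact Finset.sup_le (fun I hI => h I (Finset.mem_filter.mp hI).2)

theorem opt_mono (M : Matroid E) {v w : E → ℝ≥0} (h : ∀ e, v e ≤ w e) : opt M v ≤ opt M w := by
  refine opt_le M v _ (fun I hI => ?_)
  exact (Finset.sum_le_sum (fun e _ => h e)).trans (sum_le_opt M w hI)

theorem opt_add_le (M : Matroid E) (v w : E → ℝ≥0) :
    opt M (fun e => v e + w e) ≤ opt M v + opt M w := by
  refine opt_le M _ _ (fun I hI => ?_)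
  rw [Finset.sum_add_distrib]
  exact add_le_add (sum_le_opt M v hI) (sum_le_opt M w hI)

theorem opt_sum_le (M : Matroid E) {ι : Type} (t : Finset ι) (f : ι → E → ℝ≥0) :
    opt M (fun e => ∑ i ∈ t, f i e) ≤ ∑ i ∈ t, opt M (f i) := by
  refine opt_le M _ _ (fun I hI => ?_)
  rw [Finset.sum_comm]
  exact Finset.sum_le_sum (fun i _ => sum_le_opt M (f i) hI)

theorem opt_const_le (M : Matroid E) (c : ℝ≥0) :
    opt M (fun _ => c) ≤ c * (M.eRank.toNat : ℝ≥0) := by
  refine opt_le M _ _ (fun I hI => ?_)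
  rw [Finset.sum_const, nsmul_eq_mul, mul_comm]
  have h1 : ((I : Set E)).encard ≤ M.eRank := hI.encard_le_eRank
  have hfin : M.eRank ≠ ⊤ := by
    have h2 : M.eRank ≤ M.E.encard := M.eRank_le_encard_ground
    have h3 : M.E.encard ≠ ⊤ := by
      rw [Set.encard_ne_top_iff]
      exact Set.toFinite _
    exact ne_top_of_le_ne_top h3 h2
  have h4 : I.card ≤ M.eRank.toNat := by
    rw [Set.encard_coe_eq_coe_finsetCard] at h1
    have h5 := ENat.toNat_le_toNat h1 hfin
    rwa [ENat.toNat_coe] at h5
  gcongr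

theorem opt_le_add_of_le_off (M : Matroid E) (e : E) (v w : E → ℝ≥0)
    (h : ∀ f, f ≠ e → v f ≤ w f) : opt M v ≤ v e + opt M w := by
  refine opt_le M _ _ (fun I hI => ?_)
  have her : M.Indep ((I.erase e : Finset E) : Set E) :=
    hI.subset (by exact_mod_cast Finset.erase_subset e I)
  have h1 : ∑ f ∈ I.erase e, v f ≤ opt M w :=
    (Finset.sum_le_sum (fun f hf => h f (Finset.ne_of_mem_erase hf))).trans (sum_le_opt M w her)
  by_cases he : e ∈ I
  · rw [← Finset.add_sum_erase I v he]
    exact add_le_add le_rfl h1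
  · rw [Finset.erase_eq_of_notMem he] at h1
    exact h1.trans (le_add_of_nonneg_left zero_le)

theorem le_opt (M : Matroid E) (v : E → ℝ≥0) {e : E} (he : M.Indep {e}) : v e ≤ opt M v := by
  have h := sum_le_opt M v (I := {e}) (by simpa using he)
  simpa using h

theorem opt_eff (M : Matroid E) (v : E → ℝ≥0) : opt M (eff M v) = opt M v := by
  classical
  apply le_antisymm
  · apply opt_mono
    intro e
    unfold eff
    split_ifs
    · exact le_rfl
    · exact zero_le
  · refine opt_le M _ _ (fun I hI => ?_)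
    refine le_trans (le_of_eq ?_) (sum_le_opt M (eff M v) hI)
    refine Finset.sum_congr rfl (fun e he => ?_)
    have h1 : M.Indep {e} := hI.subset (by simpa using he)
    unfold eff
    rw [if_pos h1]

theorem measurable_opt (M : Matroid E) : Measurable (opt M) := by
  classical
  unfold opt
  exact measurable_finset_sup _ (fun (I : Finset E) (v : E → ℝ≥0) => ∑ e ∈ I, v e)
    (fun I _ => Finset.measurable_sum I (fun e _ => measurable_pi_apply e))

end Vale.Agent.Lib.P331
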