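import Vale.Agent.Lib.P331.Opt

/-! # P331: measurability of the lower bounds -/

namespace Vale.Agent.Lib.P331

open MeasureTheory
open scoped NNReal ENNReal

variable {E : Type} [Fintype E] [DecidableEq E]

theorem measurable_LB0_aux :
    Measurable (fun p : (E → ℝ≥0) × (E → ℝ≥0) => LB0 (mx p.1) p.2) := by
  unfold LB0
  refine Finset.measurable_sum _ (fun e _ => ?_)
  have hm : Measurable (fun p : (E → ℝ≥0) × (E → ℝ≥0) => mx p.1) :=
    measurable_mx.comp measurable_fst
  have hv : ∀ f : E, Measurable (fun p : (E → ℝ≥0) × (E → ℝ≥0) => p.2 f) :=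
    fun f => (measurable_pi_apply f).comp measurable_snd
  refine Measurable.ite ?_ (hv e) measurable_const
  have hset : {p : (E → ℝ≥0) × (E → ℝ≥0) | mx p.1 < p.2 e ∧ ∀ f, f ≠ e → p.2 f ≤ mx p.1}
      = {p | mx p.1 < p.2 e} ∩ ⋂ f : E, {p | f ≠ e → p.2 f ≤ mx p.1} := by
    ext p
    simp only [Set.mem_ofPred_eq, Set.mem_inter_iff, Set.mem_iInter]
  rw [hset]
  refine (measurableSet_lt hm (hv e)).inter (MeasurableSet.iInter (fun f => ?_))
  by_cases hf : f = e
  · simp [hf]
  · simp only [ne_eq, hf, not_false_eq_true, forall_const]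
    exact measurableSet_le (hv f) hm

omit [DecidableEq E] in
theorem measurable_wv_aux (i : ℕ) :
    Measurable (fun p : (E → ℝ≥0) × (E → ℝ≥0) => wv (thr i p.1) p.2) := by
  refine measurable_pi_iff.mpr (fun e => ?_)
  unfold wv
  have ht : Measurable (fun p : (E → ℝ≥0) × (E → ℝ≥0) => thr i p.1) :=
    (measurable_thr i).comp measurable_fst
  have hv : Measurable (fun p : (E → ℝ≥0) × (E → ℝ≥0) => p.2 e) :=
    (measurable_pi_apply e).comp measurable_snd
  exact Measurable.ite (measurableSet_lt ht hv) ht measurable_const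

theorem measurable_LB (M : Matroid E) (i : ℕ) :
    Measurable (fun p : (E → ℝ≥0) × (E → ℝ≥0) => LB M i p.1 p.2) := by
  unfold LB
  by_cases hi : i = 0
  · simp only [hi, if_true]
    exact measurable_LB0_aux
  · simp only [hi, if_false]
    exact (measurable_opt M).comp (measurable_wv_aux i)

theorem measurable_Phi (M : Matroid E) (L : ℕ) : Measurable (Phi M L) := by
  unfold Phi
  exact Finset.measurable_sum _ (fun i _ => measurable_LB M i)

end Vale.Agent.Lib.P331
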