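import Vale.Agent.Lib.P331.Defs2

/-! # P331: the exchange maps preserve the joint law of samples and values -/

namespace Vale.Agent.Lib.P331

open MeasureTheory
open scoped NNReal ENNReal

variable {E : Type} [Fintype E] [DecidableEq E]

theorem sw_measurePreserving (D : E → Measure ℝ≥0) [∀ e, IsProbabilityMeasure (D e)]
    (T : E → Bool) :
    MeasurePreserving (sw T) ((Measure.pi D).prod (Measure.pi D))
      ((Measure.pi D).prod (Measure.pi D)) := by
  have hΦ := measurePreserving_arrowProdEquivProdArrow ℝ≥0 ℝ≥0 E D D
  have hf : ∀ e, MeasurePreserving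
      (fun q : ℝ≥0 × ℝ≥0 => if T e = true then Prod.swap q else q)
      ((D e).prod (D e)) ((D e).prod (D e)) := by
    intro e
    by_cases h : T e = true
    · simp only [h, if_true]
      exact Measure.measurePreserving_swap
    · simp only [h]
      exact MeasurePreserving.id _
  have hpi := measurePreserving_pi (fun e => (D e).prod (D e)) (fun e => (D e).prod (D e)) hf
  have hcomp := (hΦ.comp hpi).comp (hΦ.symm (MeasurableEquiv.arrowProdEquivProdArrow ℝ≥0 ℝ≥0 E))
  have heq : sw T = (⇑(MeasurableEquiv.arrowProdEquivProdArrow ℝ≥0 ℝ≥0 E) ∘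
      fun (a : E → ℝ≥0 × ℝ≥0) e => if T e = true then Prod.swap (a e) else a e) ∘
      ⇑(MeasurableEquiv.arrowProdEquivProdArrow ℝ≥0 ℝ≥0 E).symm := by
    funext p
    apply Prod.ext
    · funext e
      by_cases h : T e = true <;>
        simp [sw, h, MeasurableEquiv.arrowProdEquivProdArrow, Equiv.arrowProdEquivProdArrow]
    · funext e
      by_cases h : T e = true <;>
        simp [sw, h, MeasurableEquiv.arrowProdEquivProdArrow, Equiv.arrowProdEquivProdArrow]
  rw [heq]
  exact hcomp

end Vale.Agent.Lib.P331
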