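import Vale.Agent.Lib.P331.Core
import Vale.Agent.Lib.P331.Alg
import Vale.Agent.Lib.P331.SwapMeas
import Vale.Agent.Lib.P331.LBMeas

/-! # P331: the threshold rule is `1 / (18 (L+1))`-competitive -/

namespace Vale.Agent.Lib.P331

open MeasureTheory
open scoped NNReal ENNReal

variable {E : Type} [Fintype E] [DecidableEq E]

theorem measurable_PhiEff (M : Matroid E) (L : ℕ) :
    Measurable (fun p : (E → ℝ≥0) × (E → ℝ≥0) => Phi M L (eff M p.1, eff M p.2)) :=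
  (measurable_Phi M L).comp
    (((measurable_eff M).comp measurable_fst).prodMk ((measurable_eff M).comp measurable_snd))

theorem pointwise_core (M : Matroid E) (L : ℕ) (hL1 : 1 ≤ L) (hL : M.eRank.toNat ≤ 2 ^ L)
    (p : (E → ℝ≥0) × (E → ℝ≥0)) :
    ∑ T : E → Bool, (opt M (sw T p).2 : ℝ≥0∞) ≤
      18 * ∑ T : E → Bool, (Phi M L (eff M (sw T p).1, eff M (sw T p).2) : ℝ≥0∞) := by
  have h := core M L hL1 hL (eff M p.1, eff M p.2) (zl_eff M p)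
  simp only [sw_eff, opt_eff] at h
  exact_mod_cast h

theorem expect_opt_le (M : Matroid E) (L : ℕ) (hL1 : 1 ≤ L) (hL : M.eRank.toNat ≤ 2 ^ L)
    (D : E → Measure ℝ≥0) [∀ e, IsProbabilityMeasure (D e)] :
    ∫⁻ v, (opt M v : ℝ≥0∞) ∂(Measure.pi D) ≤
      18 * ∫⁻ p, (Phi M L (eff M p.1, eff M p.2) : ℝ≥0∞)
        ∂((Measure.pi D).prod (Measure.pi D)) := by
  set Q := (Measure.pi D).prod (Measure.pi D) with hQ
  have hF : Measurable (fun p : (E → ℝ≥0) × (E → ℝ≥0) => (opt M p.2 : ℝ≥0∞)) :=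
    ((measurable_opt M).comp measurable_snd).coe_nnreal_ennreal
  have hG : Measurable (fun p : (E → ℝ≥0) × (E → ℝ≥0) =>
      (Phi M L (eff M p.1, eff M p.2) : ℝ≥0∞)) := (measurable_PhiEff M L).coe_nnreal_ennreal
  have h1 : ∫⁻ v, (opt M v : ℝ≥0∞) ∂(Measure.pi D) = ∫⁻ p, (opt M p.2 : ℝ≥0∞) ∂Q := by
    have := (measurePreserving_snd (μ := Measure.pi D) (ν := Measure.pi D)).lintegral_comp
      (f := fun v => (opt M v : ℝ≥0∞)) (measurable_opt M).coe_nnreal_ennreal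
    exact this.symm
  have hFT : ∀ T : E → Bool, ∫⁻ p, (opt M (sw T p).2 : ℝ≥0∞) ∂Q = ∫⁻ p, (opt M p.2 : ℝ≥0∞) ∂Q :=
    fun T => (sw_measurePreserving D T).lintegral_comp hF
  have hGT : ∀ T : E → Bool, ∫⁻ p, (Phi M L (eff M (sw T p).1, eff M (sw T p).2) : ℝ≥0∞) ∂Q
      = ∫⁻ p, (Phi M L (eff M p.1, eff M p.2) : ℝ≥0∞) ∂Q :=
    fun T => (sw_measurePreserving D T).lintegral_comp hG
  have hsw : ∀ T : E → Bool, Measurable (sw T : (E → ℝ≥0) × (E → ℝ≥0) → _) :=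
    fun T => (sw_measurePreserving D T).measurable
  have key : ∑ T : E → Bool, ∫⁻ p, (opt M (sw T p).2 : ℝ≥0∞) ∂Q ≤
      18 * ∑ T : E → Bool, ∫⁻ p, (Phi M L (eff M (sw T p).1, eff M (sw T p).2) : ℝ≥0∞) ∂Q := by
    have hF' : ∀ T ∈ (Finset.univ : Finset (E → Bool)),
        Measurable (fun p : (E → ℝ≥0) × (E → ℝ≥0) => (opt M (sw T p).2 : ℝ≥0∞)) :=
      fun T _ => hF.comp (hsw T)
    have hG' : ∀ T ∈ (Finset.univ : Finset (E → Bool)), Measurable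
        (fun p : (E → ℝ≥0) × (E → ℝ≥0) =>
          (Phi M L (eff M (sw T p).1, eff M (sw T p).2) : ℝ≥0∞)) :=
      fun T _ => hG.comp (hsw T)
    rw [← lintegral_finsetSum _ hF', ← lintegral_finsetSum _ hG',
      ← lintegral_const_mul' _ _ (by finiteness)]
    exact lintegral_mono (fun p => pointwise_core M L hL1 hL p)
  simp only [hFT, hGT, Finset.sum_const, nsmul_eq_mul] at key
  rw [h1]
  have hc0 : ((Finset.univ : Finset (E → Bool)).card : ℝ≥0∞) ≠ 0 := by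
    simp
  have hct : ((Finset.univ : Finset (E → Bool)).card : ℝ≥0∞) ≠ ⊤ := by finiteness
  rw [mul_left_comm] at key
  exact (ENNReal.mul_le_mul_iff_right hc0 hct).mp key

theorem lintegral_seed (L : ℕ) {β : Type} [MeasurableSpace β] (Q : Measure β) [SFinite Q]
    (g : Fin (L + 1) → β → ℝ≥0∞) (hg : ∀ i, Measurable (g i)) :
    ∫⁻ p, g p.1 p.2 ∂(@Measure.prod _ _ ⊤ _ (((L : ℝ≥0∞) + 1)⁻¹ • @Measure.count _ ⊤) Q) =
      ((L : ℝ≥0∞) + 1)⁻¹ * ∑ i, ∫⁻ q, g i q ∂Q := by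
  let _ : MeasurableSpace (Fin (L + 1)) := ⊤
  have hm : Measurable (fun p : Fin (L + 1) × β => g p.1 p.2) :=
    measurable_from_prod_countable_right hg
  rw [lintegral_prod _ hm.aemeasurable, lintegral_smul_measure, lintegral_count, tsum_fintype]
  rfl

theorem thrRule_competitive (M : Matroid E) (L : ℕ) (hL1 : 1 ≤ L) (hL : M.eRank.toNat ≤ 2 ^ L) :
    Competitive M (thrRule M L) (1 / (18 * ((L : ℝ≥0∞) + 1))) := by
  intro D hD _ adv
  set Q := (Measure.pi D).prod (Measure.pi D) with hQ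
  have hlow : ∫⁻ p, ((LB M (Fin.val (n := L + 1) p.1) (eff M p.2.1) (eff M p.2.2) : ℝ≥0) : ℝ≥0∞)
        ∂((thrRule M L).law.prod Q) ≤
      ∫⁻ p, ((∑ e ∈ run M (thrRule M L) p.1 p.2.1 p.2.2 (adv.order p.1 p.2.1 p.2.2), p.2.2 e : ℝ≥0)
        : ℝ≥0∞) ∂((thrRule M L).law.prod Q) := by
    refine lintegral_mono (fun p => ?_)
    exact ENNReal.coe_le_coe.mpr
      (LB_le_alg M L p.1 p.2.1 p.2.2 _ (adv.complete p.1 p.2.1 p.2.2))
  refine le_trans ?_ hlow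
  have hs := lintegral_seed L Q
    (fun i q => ((LB M (i : ℕ) (eff M q.1) (eff M q.2) : ℝ≥0) : ℝ≥0∞))
    (fun i => ((measurable_LB M i).comp (((measurable_eff M).comp measurable_fst).prodMk
      ((measurable_eff M).comp measurable_snd))).coe_nnreal_ennreal)
  have hs' : ∫⁻ p, ((LB M (Fin.val (n := L + 1) p.1) (eff M p.2.1) (eff M p.2.2) : ℝ≥0) : ℝ≥0∞)
        ∂((thrRule M L).law.prod Q) = ((L : ℝ≥0∞) + 1)⁻¹ *
        ∑ i : Fin (L + 1), ∫⁻ q, ((LB M (i : ℕ) (eff M q.1) (eff M q.2) : ℝ≥0) : ℝ≥0∞) ∂Q := hs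
  rw [hs']
  have hsum : ∑ i : Fin (L + 1), ∫⁻ q, ((LB M (i : ℕ) (eff M q.1) (eff M q.2) : ℝ≥0) : ℝ≥0∞) ∂Q
      = ∫⁻ p, (Phi M L (eff M p.1, eff M p.2) : ℝ≥0∞) ∂Q := by
    have hm : ∀ i ∈ (Finset.univ : Finset (Fin (L + 1))), Measurable
        (fun q : (E → ℝ≥0) × (E → ℝ≥0) =>
          ((LB M (i : ℕ) (eff M q.1) (eff M q.2) : ℝ≥0) : ℝ≥0∞)) :=
      fun i _ => ((measurable_LB M i).comp (((measurable_eff M).comp measurable_fst).prodMk
        ((measurable_eff M).comp measurable_snd))).coe_nnreal_ennreal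
    rw [← lintegral_finsetSum _ hm]
    refine lintegral_congr (fun q => ?_)
    unfold Phi
    rw [ENNReal.ofNNReal_finsetSum, ← Fin.sum_univ_eq_sum_range
      (fun i => ((LB M i (eff M q.1) (eff M q.2) : ℝ≥0) : ℝ≥0∞))]
  rw [hsum]
  have h := expect_opt_le M L hL1 hL D
  rw [← hQ] at h
  calc 1 / (18 * ((L : ℝ≥0∞) + 1)) * ∫⁻ v, (opt M v : ℝ≥0∞) ∂(Measure.pi D)
      ≤ 1 / (18 * ((L : ℝ≥0∞) + 1)) *
          (18 * ∫⁻ p, (Phi M L (eff M p.1, eff M p.2) : ℝ≥0∞) ∂Q) := by gcongr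
    _ = ((L : ℝ≥0∞) + 1)⁻¹ * ∫⁻ p, (Phi M L (eff M p.1, eff M p.2) : ℝ≥0∞) ∂Q := by
        rw [one_div, ENNReal.mul_inv (Or.inl (by norm_num)) (Or.inl (by finiteness)), ← mul_assoc,
          mul_right_comm (18 : ℝ≥0∞)⁻¹, ENNReal.inv_mul_cancel (by norm_num) (by finiteness),
          one_mul]

end Vale.Agent.Lib.P331
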